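import Vale.Agent.P075.Loc

namespace Vale.Agent.P075

open Matrix Finset

variable {n : Type*} [Fintype n] [DecidableEq n]

noncomputable def PP (ε : ℝ) (A B : Matrix n n ℝ) : Matrix n n ℝ :=
  Aᵀ * A + B * Bᵀ + ε • (1 : Matrix n n ℝ)

noncomputable def beta (ε : ℝ) (A B C : Matrix n n ℝ) : ℝ :=
  tau (PP ε A B) + tau (PP ε B C) + tau (PP ε C A)

lemma PP_psd {ε : ℝ} (hε : 0 ≤ ε) (A B : Matrix n n ℝ) : (PP ε A B).PosSemidef :=
  ((psd_tmul A).add (psd_mult B)).add (PosSemidef.one.smul hε)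

lemma beta_nonneg {ε : ℝ} (hε : 0 ≤ ε) (A B C : Matrix n n ℝ) : 0 ≤ beta ε A B C :=
  add_nonneg (add_nonneg (tau_nonneg (PP_psd hε _ _)) (tau_nonneg (PP_psd hε _ _)))
    (tau_nonneg (PP_psd hε _ _))

lemma PP_sqrt {ε : ℝ} (hε : 0 < ε) (A B : Matrix n n ℝ) : ∃ Q : Matrix n n ℝ, Q.PosDef ∧
    Q * Q = PP ε A B ∧ (Q * Q - Aᵀ * A).PosSemidef ∧ (Q * Q - B * Bᵀ).PosSemidef := by
  obtain ⟨Q, hQ, hQQ⟩ := exists_sqrt (PP_psd hε.le A B)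
  have h1 : (PP ε A B).PosDef :=
    PosDef.posSemidef_add ((psd_tmul A).add (psd_mult B)) (PosDef.one.smul hε)
  refine ⟨Q, hQ.posDef_iff_isUnit.2 ?_, hQQ, ?_, ?_⟩
  · have := h1.isUnit
    rw [← hQQ] at this
    exact isUnit_of_mul_isUnit_left this
  · rw [hQQ, show PP ε A B - Aᵀ * A = B * Bᵀ + ε • 1 by unfold PP; abel]
    exact (psd_mult B).add (PosSemidef.one.smul hε.le)
  · rw [hQQ, show PP ε A B - B * Bᵀ = Aᵀ * A + ε • 1 by unfold PP; abel]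
    exact (psd_tmul A).add (PosSemidef.one.smul hε.le)

lemma child_dom {ε : ℝ} (hε : 0 ≤ ε) {A B Q R T T' S S' : Matrix n n ℝ} (hQ : Q * Q = PP ε A B)
    (hR : Rᵀ = R) (hRR : R * R = R) (hT : Tᵀ * T + T'ᵀ * T' = 1) (hS : S * Sᵀ + S' * S'ᵀ = 1) :
    (PP ε (T * A * R) (R * B * S) + PP ε (T' * A * R) (R * B * S') - R * Q * Q * R).PosSemidef := by
  have h1 : (T * A * R)ᵀ * (T * A * R) + (T' * A * R)ᵀ * (T' * A * R) = R * (Aᵀ * A) * R := by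
    calc _ = R * Aᵀ * (Tᵀ * T + T'ᵀ * T') * A * R := by
          simp only [transpose_mul, hR, Matrix.mul_add, Matrix.add_mul, Matrix.mul_assoc]
      _ = _ := by rw [hT]; simp only [Matrix.mul_one, Matrix.mul_assoc]
  have h2 : (R * B * S) * (R * B * S)ᵀ + (R * B * S') * (R * B * S')ᵀ = R * (B * Bᵀ) * R := by
    calc _ = R * B * (S * Sᵀ + S' * S'ᵀ) * Bᵀ * R := by
          simp only [transpose_mul, hR, Matrix.mul_add, Matrix.add_mul, Matrix.mul_assoc]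
      _ = _ := by rw [hS]; simp only [Matrix.mul_one, Matrix.mul_assoc]
  have h3 : R * Q * Q * R = R * (Aᵀ * A) * R + R * (B * Bᵀ) * R + ε • R := by
    rw [Matrix.mul_assoc R Q Q, hQ]
    simp only [PP, Matrix.mul_add, Matrix.add_mul, Matrix.mul_smul, Matrix.smul_mul,
      Matrix.mul_one, hRR]
  have h4 : ((1 : Matrix n n ℝ) - R).PosSemidef := by
    have := psd_sq (X := 1 - R) (by rw [transpose_sub, transpose_one, hR])
    rwa [Matrix.sub_mul, Matrix.mul_sub, Matrix.mul_sub, hRR, Matrix.one_mul, Matrix.one_mul,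
      Matrix.mul_one, sub_self, sub_zero] at this
  have h5 : PP ε (T * A * R) (R * B * S) + PP ε (T' * A * R) (R * B * S') - R * Q * Q * R =
      ε • (1 : Matrix n n ℝ) + ε • (1 - R) := by
    rw [h3, ← h1, ← h2, smul_sub]; unfold PP; abel
  rw [h5]
  exact (PosSemidef.one.smul hε).add (h4.smul hε)

theorem local_ineq {ε : ℝ} (hε : 0 < ε) {P : Matrix n n ℝ} (hP : Pᵀ = P) (hPP : P * P = P)
    (A B C : Matrix n n ℝ) :
    |trace ((P - (1 - P)) * A * (P - (1 - P)) * B * (P - (1 - P)) * C)| + beta ε A B C ≤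
      2 * (beta ε (P * A * P) (P * B * P) (P * C * P) +
        beta ε (P * A * (1 - P)) ((1 - P) * B * (1 - P)) ((1 - P) * C * P) +
        beta ε ((1 - P) * A * P) (P * B * (1 - P)) ((1 - P) * C * (1 - P)) +
        beta ε ((1 - P) * A * (1 - P)) ((1 - P) * B * P) (P * C * (1 - P))) := by
  have hP' : (1 - P)ᵀ = 1 - P := by rw [transpose_sub, transpose_one, hP]
  have hPP' : (1 - P) * (1 - P) = 1 - P := by
    rw [Matrix.sub_mul, Matrix.mul_sub, Matrix.mul_sub, hPP]; simp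
  have t1 : Pᵀ * P + (1 - P)ᵀ * (1 - P) = 1 := by rw [hP, hP', hPP, hPP']; abel
  have t2 : (1 - P)ᵀ * (1 - P) + Pᵀ * P = 1 := by rw [add_comm, t1]
  have s1 : P * Pᵀ + (1 - P) * (1 - P)ᵀ = 1 := by rw [hP, hP', hPP, hPP']; abel
  have s2 : (1 - P) * (1 - P)ᵀ + P * Pᵀ = 1 := by rw [add_comm, s1]
  obtain ⟨Q1, hQ1, q1, a1, b1⟩ := PP_sqrt hε A B
  obtain ⟨Q2, hQ2, q2, b2, c2⟩ := PP_sqrt hε B C
  obtain ⟨Q0, hQ0, q0, c0, a0⟩ := PP_sqrt hε C A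
  obtain ⟨X1, x1, y1, z1, w1, d1⟩ := deficiency hQ1 hP hPP
  obtain ⟨X2, x2, y2, z2, w2, d2⟩ := deficiency hQ2 hP hPP
  obtain ⟨X0, x0, y0, z0, w0, d0⟩ := deficiency hQ0 hP hPP
  have p := fun A B : Matrix n n ℝ => PP_psd hε.le A B
  have e1 := d1 _ _ _ _ (p _ _) (p _ _) (p _ _) (p _ _) (child_dom hε.le q1 hP hPP t1 s1)
    (child_dom hε.le q1 hP' hPP' t1 s2)
  have e2 := d2 _ _ _ _ (p _ _) (p _ _) (p _ _) (p _ _) (child_dom hε.le q2 hP hPP t1 s1)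
    (child_dom hε.le q2 hP' hPP' t1 s2)
  have e0 := d0 _ _ _ _ (p _ _) (p _ _) (p _ _) (p _ _) (child_dom hε.le q0 hP hPP t1 s1)
    (child_dom hε.le q0 hP' hPP' t1 s2)
  rw [q1] at e1; rw [q2] at e2; rw [q0] at e0
  have hh : Contr (P - (1 - P)) := by
    rw [contr_iff, transpose_sub, hP, hP']
    have : 1 - (P - (1 - P)) * (P - (1 - P)) = 0 := by
      simp only [Matrix.sub_mul, Matrix.mul_sub, Matrix.mul_one, Matrix.one_mul, hPP]; abel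
    rw [this]; exact PosSemidef.zero
  have rA := contr_right hQ1 a1
  have rB := contr_right hQ2 b2
  have rC := contr_right hQ0 c0
  have lA := contr_left hQ0 a0
  have lB := contr_left hQ1 b1
  have lC := contr_left hQ2 c2
  have I1 := typeI rA rB rC x0 x1 x2
  have I2 := typeI lA lB lC x0 x1 x2
  have J1 := typeII hQ1.posSemidef hQ2.posSemidef b1 b2 ((lC.mul hh).mul rA) x1 x2
  have J2 := typeII hQ0.posSemidef hQ1.posSemidef a0 a1 ((lB.mul hh).mul rC) x0 x1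
  have J3 := typeII hQ2.posSemidef hQ0.posSemidef c2 c0 ((lA.mul hh).mul rB) x2 x0
  generalize P - (1 - P) = h at *
  have key : trace (h * A * h * B * h * C) =
      trace (A * Q1⁻¹ * X1 * (B * Q2⁻¹) * X2 * (C * Q0⁻¹) * X0) +
      trace (Q0⁻¹ * A * X1 * (Q1⁻¹ * B) * X2 * (Q2⁻¹ * C) * X0) +
      trace (Q2⁻¹ * C * h * (A * Q1⁻¹) * X1 * B * X2) +
      trace (Q1⁻¹ * B * h * (C * Q0⁻¹) * X0 * A * X1) +
      trace (Q0⁻¹ * A * h * (B * Q2⁻¹) * X2 * C * X0) := by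
    have k1 : trace (A * Q1⁻¹ * X1 * (B * Q2⁻¹) * X2 * (C * Q0⁻¹) * X0) =
        trace ((Q0⁻¹ * X0) * A * (Q1⁻¹ * X1) * B * (Q2⁻¹ * X2) * C) := by
      calc _ = trace ((A * (Q1⁻¹ * X1) * B * (Q2⁻¹ * X2) * C) * (Q0⁻¹ * X0)) := by
            simp only [Matrix.mul_assoc]
        _ = _ := by rw [trace_mul_comm]; simp only [Matrix.mul_assoc]
    have k2 : trace (Q0⁻¹ * A * X1 * (Q1⁻¹ * B) * X2 * (Q2⁻¹ * C) * X0) =
        trace ((X0 * Q0⁻¹) * A * (X1 * Q1⁻¹) * B * (X2 * Q2⁻¹) * C) := by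
      rw [trace_mul_comm]; simp only [Matrix.mul_assoc]
    have k3 : trace (Q2⁻¹ * C * h * (A * Q1⁻¹) * X1 * B * X2) =
        trace (h * A * (Q1⁻¹ * X1) * B * (X2 * Q2⁻¹) * C) := by
      calc _ = trace ((Q2⁻¹ * C) * (h * A * (Q1⁻¹ * X1) * B * X2)) := by
            simp only [Matrix.mul_assoc]
        _ = _ := by rw [trace_mul_comm]; simp only [Matrix.mul_assoc]
    have k4 : trace (Q1⁻¹ * B * h * (C * Q0⁻¹) * X0 * A * X1) =
        trace ((Q0⁻¹ * X0) * A * (X1 * Q1⁻¹) * B * h * C) := by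
      calc _ = trace ((Q1⁻¹ * B * h * C) * ((Q0⁻¹ * X0) * A * X1)) := by
            simp only [Matrix.mul_assoc]
        _ = _ := by rw [trace_mul_comm]; simp only [Matrix.mul_assoc]
    have k5 : trace (Q0⁻¹ * A * h * (B * Q2⁻¹) * X2 * C * X0) =
        trace ((X0 * Q0⁻¹) * A * h * B * (Q2⁻¹ * X2) * C) := by
      rw [trace_mul_comm]; simp only [Matrix.mul_assoc]
    rw [k1, k2, k3, k4, k5]
    have m : trace (h * A * h * B * h * C) = trace ((X0 * Q0⁻¹ + Q0⁻¹ * X0) * A *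
      (X1 * Q1⁻¹ + Q1⁻¹ * X1) * B * (X2 * Q2⁻¹ + Q2⁻¹ * X2) * C) := by rw [y0, y1, y2]
    have m3 : trace (h * A * (Q1⁻¹ * X1) * B * (X2 * Q2⁻¹) * C) = trace ((X0 * Q0⁻¹ + Q0⁻¹ * X0) *
      A * (Q1⁻¹ * X1) * B * (X2 * Q2⁻¹) * C) := by rw [y0]
    have m4 : trace ((Q0⁻¹ * X0) * A * (X1 * Q1⁻¹) * B * h * C) = trace ((Q0⁻¹ * X0) * A *
      (X1 * Q1⁻¹) * B * (X2 * Q2⁻¹ + Q2⁻¹ * X2) * C) := by rw [y2]
    have m5 : trace ((X0 * Q0⁻¹) * A * h * B * (Q2⁻¹ * X2) * C) = trace ((X0 * Q0⁻¹) * A *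
      (X1 * Q1⁻¹ + Q1⁻¹ * X1) * B * (Q2⁻¹ * X2) * C) := by rw [y1]
    rw [m, m3, m4, m5]
    generalize X0 * Q0⁻¹ = u0; generalize Q0⁻¹ * X0 = v0
    generalize X1 * Q1⁻¹ = u1; generalize Q1⁻¹ * X1 = v1
    generalize X2 * Q2⁻¹ = u2; generalize Q2⁻¹ * X2 = v2
    simp only [Matrix.mul_add, Matrix.add_mul, trace_add]
    ring
  rw [key]
  unfold beta
  have := abs_add_le (trace (A * Q1⁻¹ * X1 * (B * Q2⁻¹) * X2 * (C * Q0⁻¹) * X0) +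
      trace (Q0⁻¹ * A * X1 * (Q1⁻¹ * B) * X2 * (Q2⁻¹ * C) * X0) +
      trace (Q2⁻¹ * C * h * (A * Q1⁻¹) * X1 * B * X2) +
      trace (Q1⁻¹ * B * h * (C * Q0⁻¹) * X0 * A * X1))
      (trace (Q0⁻¹ * A * h * (B * Q2⁻¹) * X2 * C * X0))
  have := abs_add_le (trace (A * Q1⁻¹ * X1 * (B * Q2⁻¹) * X2 * (C * Q0⁻¹) * X0) +
      trace (Q0⁻¹ * A * X1 * (Q1⁻¹ * B) * X2 * (Q2⁻¹ * C) * X0) +
      trace (Q2⁻¹ * C * h * (A * Q1⁻¹) * X1 * B * X2))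
      (trace (Q1⁻¹ * B * h * (C * Q0⁻¹) * X0 * A * X1))
  have := abs_add_le (trace (A * Q1⁻¹ * X1 * (B * Q2⁻¹) * X2 * (C * Q0⁻¹) * X0) +
      trace (Q0⁻¹ * A * X1 * (Q1⁻¹ * B) * X2 * (Q2⁻¹ * C) * X0))
      (trace (Q2⁻¹ * C * h * (A * Q1⁻¹) * X1 * B * X2))
  have := abs_add_le (trace (A * Q1⁻¹ * X1 * (B * Q2⁻¹) * X2 * (C * Q0⁻¹) * X0))
      (trace (Q0⁻¹ * A * X1 * (Q1⁻¹ * B) * X2 * (Q2⁻¹ * C) * X0))
  linarith

end Vale.Agent.P075
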