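import Vale.Agent.P075.Disc

namespace Vale.Agent.P075

open MeasureTheory Set

abbrev R3 := ℝ × ℝ × ℝ

def box (R : ℝ) : Set R3 := Ico 0 R ×ˢ Ico 0 R ×ˢ Ico 0 R

def sh (δ : ℝ) (c : ℕ × ℕ × ℕ) : R3 := (δ * c.1, δ * c.2.1, δ * c.2.2)

def cell (δ : ℝ) (c : ℕ × ℕ × ℕ) : Set R3 :=
  Ico (δ * c.1) (δ * (c.1 + 1 : ℕ)) ×ˢ Ico (δ * c.2.1) (δ * (c.2.1 + 1 : ℕ)) ×ˢ
    Ico (δ * c.2.2) (δ * (c.2.2 + 1 : ℕ))

lemma box_meas (R : ℝ) : MeasurableSet (box R) :=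
  measurableSet_Ico.prod (measurableSet_Ico.prod measurableSet_Ico)

lemma cell_meas (δ : ℝ) (c : ℕ × ℕ × ℕ) : MeasurableSet (cell δ c) :=
  measurableSet_Ico.prod (measurableSet_Ico.prod measurableSet_Ico)

lemma mem_Ico_floor {δ : ℝ} (hδ : 0 < δ) (x : ℝ) (i : ℕ) :
    x ∈ Ico (δ * i) (δ * (i + 1 : ℕ)) ↔ 0 ≤ x ∧ ⌊x / δ⌋₊ = i := by
  constructor
  · rintro ⟨h1, h2⟩
    have h0 : 0 ≤ x := le_trans (by positivity) h1
    refine ⟨h0, (Nat.floor_eq_iff (by positivity)).2 ⟨?_, ?_⟩⟩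
    · rw [le_div_iff₀ hδ]; linarith
    · rw [div_lt_iff₀ hδ]; push_cast at h2; linarith
  · rintro ⟨h0, h1⟩
    obtain ⟨h2, h3⟩ := (Nat.floor_eq_iff (by positivity)).1 h1
    rw [le_div_iff₀ hδ] at h2
    rw [div_lt_iff₀ hδ] at h3
    exact ⟨by linarith, by push_cast; linarith⟩

lemma mem_Ico_floor' {δ : ℝ} (hδ : 0 < δ) (x : ℝ) (M : ℕ) :
    x ∈ Ico 0 (δ * M) ↔ 0 ≤ x ∧ ⌊x / δ⌋₊ < M := by
  constructor
  · rintro ⟨h1, h2⟩
    refine ⟨h1, (Nat.floor_lt (by positivity)).2 ?_⟩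
    rw [div_lt_iff₀ hδ]; linarith
  · rintro ⟨h1, h2⟩
    have := (Nat.floor_lt (by positivity)).1 h2
    rw [div_lt_iff₀ hδ] at this
    exact ⟨h1, by linarith⟩

def idx (M : ℕ) : Finset (ℕ × ℕ × ℕ) := Finset.range M ×ˢ Finset.range M ×ˢ Finset.range M

lemma box_eq {δ : ℝ} (hδ : 0 < δ) (M : ℕ) : box (δ * M) = ⋃ c ∈ idx M, cell δ c := by
  ext x
  simp only [box, cell, mem_prod, mem_Ico_floor hδ, mem_Ico_floor' hδ, mem_iUnion, idx,
    Finset.mem_product, Finset.mem_range]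
  constructor
  · rintro ⟨h1, h2, h3⟩
    exact ⟨(⌊x.1 / δ⌋₊, ⌊x.2.1 / δ⌋₊, ⌊x.2.2 / δ⌋₊), ⟨h1.2, h2.2, h3.2⟩, ⟨h1.1, rfl⟩, ⟨h2.1, rfl⟩,
      ⟨h3.1, rfl⟩⟩
  · rintro ⟨c, ⟨a1, a2, a3⟩, h1, h2, h3⟩
    exact ⟨⟨h1.1, h1.2 ▸ a1⟩, ⟨h2.1, h2.2 ▸ a2⟩, ⟨h3.1, h3.2 ▸ a3⟩⟩

lemma cell_pre (δ : ℝ) (c : ℕ × ℕ × ℕ) : (fun u => sh δ c + u) ⁻¹' cell δ c = box δ := by
  ext u
  simp only [mem_preimage, cell, sh, box, mem_prod, mem_Ico, Prod.fst_add, Prod.snd_add]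
  push_cast
  constructor
  · rintro ⟨⟨h1, h2⟩, ⟨h3, h4⟩, h5, h6⟩
    refine ⟨⟨?_, ?_⟩, ⟨?_, ?_⟩, ?_, ?_⟩ <;> linarith
  · rintro ⟨⟨h1, h2⟩, ⟨h3, h4⟩, h5, h6⟩
    refine ⟨⟨?_, ?_⟩, ⟨?_, ?_⟩, ?_, ?_⟩ <;> linarith

lemma shift_mp (a : R3) : MeasurePreserving (fun u : R3 => a + u) volume volume :=
  (measurePreserving_add_left volume a.1).prod
    ((measurePreserving_add_left volume a.2.1).prod (measurePreserving_add_left volume a.2.2))

lemma cell_int {δ : ℝ} (hδ : 0 < δ) {M : ℕ} {Ψ : R3 → ℝ} (h : IntegrableOn Ψ (box (δ * M)))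
    {c : ℕ × ℕ × ℕ} (hc : c ∈ idx M) : IntegrableOn (fun u => Ψ (sh δ c + u)) (box δ) := by
  have h1 : IntegrableOn Ψ (cell δ c) := by
    refine h.mono_set ?_
    rw [box_eq hδ]
    exact subset_biUnion_of_mem (u := cell δ) hc
  rw [← cell_pre δ c]
  exact ((shift_mp (sh δ c)).integrableOn_comp_preimage
    (measurableEmbedding_addLeft _)).2 h1

lemma cell_decomp {δ : ℝ} (hδ : 0 < δ) {M : ℕ} {Ψ : R3 → ℝ} (h : IntegrableOn Ψ (box (δ * M))) :
    ∫ x in box (δ * M), Ψ x = ∫ u in box δ, ∑ c ∈ idx M, Ψ (sh δ c + u) := by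
  rw [integral_finsetSum _ fun c hc => cell_int hδ h hc]
  have h0 := h
  rw [box_eq hδ] at h0 ⊢
  rw [integral_biUnion_finset _ (fun c _ => cell_meas δ c) ?_
    (fun c hc => h0.mono_set (subset_biUnion_of_mem (u := cell δ) hc))]
  · refine Finset.sum_congr rfl fun c _ => ?_
    rw [← cell_pre δ c]
    exact ((shift_mp (sh δ c)).setIntegral_preimage_emb
      (measurableEmbedding_addLeft _) Ψ _).symm
  · intro c _ d _ hcd
    refine disjoint_left.2 fun x hx hy => hcd ?_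
    simp only [cell, mem_prod, mem_Ico_floor hδ] at hx hy
    exact Prod.ext (hx.1.2.symm.trans hy.1.2)
      (Prod.ext (hx.2.1.2.symm.trans hy.2.1.2) (hx.2.2.2.symm.trans hy.2.2.2))

def Qd : Set (ℝ × ℝ) := Ici 0 ×ˢ Ici 0

lemma vol_box (R : ℝ) : (volume : Measure R3).restrict (box R) =
    (volume.restrict (Ico 0 R)).prod ((volume.restrict (Ico 0 R)).prod (volume.restrict (Ico 0 R))) := by
  rw [Measure.prod_restrict, Measure.prod_restrict]; rfl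

def p01 (x : R3) : ℝ × ℝ := (x.1, x.2.1)
def p12 (x : R3) : ℝ × ℝ := (x.2.1, x.2.2)
def p20 (x : R3) : ℝ × ℝ := (x.2.2, x.1)

lemma proj_mp (R : ℝ) (π : R3 → ℝ × ℝ) (hπ : π = p01 ∨ π = p12 ∨ π = p20) :
    MeasurePreserving π (volume.restrict (box R))
      (ENNReal.ofReal R • (volume : Measure (ℝ × ℝ)).restrict (Ico 0 R ×ˢ Ico 0 R)) := by
  have hm : Measurable π := by
    rcases hπ with rfl | rfl | rfl
    · unfold p01; fun_prop
    · unfold p12; fun_prop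
    · unfold p20; fun_prop
  refine ⟨hm, ?_⟩
  rw [vol_box, Measure.volume_eq_prod, ← Measure.prod_restrict]
  have hu : (volume.restrict (Ico 0 R)) univ = ENNReal.ofReal R := by simp
  generalize hμ : (volume : Measure ℝ).restrict (Ico 0 R) = μ at hu
  haveI : IsFiniteMeasure μ := ⟨by rw [hu]; exact ENNReal.ofReal_lt_top⟩
  refine Measure.ext_prod fun {s t} hs ht => ?_
  rw [Measure.map_apply hm (hs.prod ht), Measure.smul_apply, Measure.prod_prod, smul_eq_mul, ← hu]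
  rcases hπ with rfl | rfl | rfl
  · have : p01 ⁻¹' (s ×ˢ t) = s ×ˢ t ×ˢ univ := by ext x; simp [p01]
    rw [this, Measure.prod_prod, Measure.prod_prod]; ring
  · have : p12 ⁻¹' (s ×ˢ t) = univ ×ˢ s ×ˢ t := by ext x; simp [p12]
    rw [this, Measure.prod_prod, Measure.prod_prod]
  · have : p20 ⁻¹' (s ×ˢ t) = t ×ˢ univ ×ˢ s := by ext x; simp [p20, and_comm]
    rw [this, Measure.prod_prod, Measure.prod_prod]; ring

lemma sq_sub (R : ℝ) : Ico 0 R ×ˢ Ico 0 R ⊆ Qd := prod_mono Ico_subset_Ici_self Ico_subset_Ici_self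

lemma proj_memLp (R : ℝ) (π : R3 → ℝ × ℝ) (hπ : π = p01 ∨ π = p12 ∨ π = p20) {F : ℝ × ℝ → ℝ}
    (hF : MemLp F 3 (volume.restrict Qd)) : MemLp (F ∘ π) 3 (volume.restrict (box R)) :=
  ((hF.mono_measure (Measure.restrict_mono (sq_sub R) le_rfl)).smul_measure
    ENNReal.ofReal_ne_top).comp_measurePreserving (proj_mp R π hπ)

lemma cube_int {α : Type*} [MeasurableSpace α] {μ : Measure α} {F : α → ℝ} (hF : MemLp F 3 μ) :
    Integrable (fun x => |F x| ^ 3) μ := by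
  have h3 : ((3 : ℕ) : ENNReal) = 3 := by norm_num
  have h := MemLp.integrable_norm_pow (f := F) (μ := μ) (p := 3) (h3 ▸ hF) (by norm_num)
  simpa only [Real.norm_eq_abs] using h

lemma proj_integral {R : ℝ} (hR : 0 ≤ R) (π : R3 → ℝ × ℝ) (hπ : π = p01 ∨ π = p12 ∨ π = p20)
    {F : ℝ × ℝ → ℝ} (hF : MemLp F 3 (volume.restrict Qd)) :
    ∫ x in box R, |F (π x)| ^ 3 ≤ R * ∫ y in Qd, |F y| ^ 3 := by
  have h1 := cube_int hF
  have h2 : IntegrableOn (fun y => |F y| ^ 3) (Ico 0 R ×ˢ Ico 0 R) :=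
    IntegrableOn.mono_set h1 (sq_sub R)
  have hp := proj_mp R π hπ
  have h3 := integral_map (μ := volume.restrict (box R)) (φ := π) hp.measurable.aemeasurable
    (f := fun y => |F y| ^ 3) (by
      rw [hp.map_eq]; exact (h2.smul_measure ENNReal.ofReal_ne_top).aestronglyMeasurable)
  rw [← h3, hp.map_eq, integral_smul_measure, ENNReal.toReal_ofReal hR, smul_eq_mul]
  refine mul_le_mul_of_nonneg_left ?_ hR
  exact setIntegral_mono_set h1 (Filter.Eventually.of_forall fun y => by positivity)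
    (sq_sub R).eventuallyLE

lemma triple_int (R : ℝ) {F0 F1 F2 : ℝ × ℝ → ℝ} (h0 : MemLp F0 3 (volume.restrict Qd))
    (h1 : MemLp F1 3 (volume.restrict Qd)) (h2 : MemLp F2 3 (volume.restrict Qd))
    {w : R3 → ℝ} (hw : Measurable w) (hw1 : ∀ x, |w x| ≤ 1) :
    IntegrableOn (fun x : R3 => F0 (x.1, x.2.1) * F1 (x.2.1, x.2.2) * F2 (x.2.2, x.1) * w x)
      (box R) := by
  have a0 := proj_memLp R p01 (Or.inl rfl) h0
  have a1 := proj_memLp R p12 (Or.inr (Or.inl rfl)) h1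
  have a2 := proj_memLp R p20 (Or.inr (Or.inr rfl)) h2
  refine Integrable.mono' (((cube_int a0).add (cube_int a1)).add (cube_int a2))
    (((a0.1.mul a1.1).mul a2.1).mul hw.aestronglyMeasurable) ?_
  refine Filter.Eventually.of_forall fun x => ?_
  simp only [Pi.add_apply, Function.comp, p01, p12, p20, Real.norm_eq_abs, abs_mul]
  have := hw1 x
  have := abs_nonneg (w x)
  have ha := abs_nonneg (F0 (x.1, x.2.1))
  have hb := abs_nonneg (F1 (x.2.1, x.2.2))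
  have hc := abs_nonneg (F2 (x.2.2, x.1))
  generalize |F0 (x.1, x.2.1)| = a at *
  generalize |F1 (x.2.1, x.2.2)| = b at *
  generalize |F2 (x.2.2, x.1)| = c at *
  have h3 : a * b * c * |w x| ≤ a * b * c := mul_le_of_le_one_right (by positivity) (hw1 x)
  have h4 : 3 * (a * b * c) ≤ a ^ 3 + b ^ 3 + c ^ 3 := by
    nlinarith [mul_nonneg (add_nonneg (add_nonneg ha hb) hc)
      (add_nonneg (add_nonneg (sq_nonneg (a - b)) (sq_nonneg (b - c))) (sq_nonneg (c - a)))]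
  have : 0 ≤ a * b * c := by positivity
  linarith

lemma shift_mem {δ u : ℝ} (hδ : 0 < δ) (hu : u ∈ Ico 0 δ) (i a b : ℕ) :
    δ * i + u ∈ Ico (δ * a) (δ * b) ↔ a ≤ i ∧ i < b := by
  obtain ⟨h1, h2⟩ := hu
  constructor
  · rintro ⟨h3, h4⟩
    constructor
    · have : (a : ℝ) < i + 1 := by
        by_contra h; push Not at h; nlinarith
      have : a < i + 1 := by exact_mod_cast this
      omega
    · have : (i : ℝ) < b := by
        by_contra h; push Not at h; nlinarith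
      exact_mod_cast this
  · rintro ⟨h3, h4⟩
    have h5 : (a : ℝ) ≤ i := by exact_mod_cast h3
    have h6 : (i : ℝ) + 1 ≤ b := by exact_mod_cast h4
    constructor <;> nlinarith

end Vale.Agent.P075
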