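import Vale.Agent.P075.Bell

namespace Vale.Agent.P075

open Matrix Finset

variable {M : ℕ}

noncomputable def mask (M j m : ℕ) : Matrix (Fin M) (Fin M) ℝ :=
  diagonal (fun i => if i.val / 2 ^ j = m then 1 else 0)

noncomputable def par (M j : ℕ) : Matrix (Fin M) (Fin M) ℝ :=
  diagonal (fun i => if i.val / 2 ^ j % 2 = 0 then 1 else 0)

def hd (j m i : ℕ) : ℝ := if i / 2 ^ j = 2 * m then 1 else if i / 2 ^ j = 2 * m + 1 then -1 else 0

noncomputable def blk (j m m' : ℕ) (F : Matrix (Fin M) (Fin M) ℝ) : Matrix (Fin M) (Fin M) ℝ :=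
  mask M j m * F * mask M j m'

lemma div_succ (i j : ℕ) : i / 2 ^ (j + 1) = i / 2 ^ j / 2 := by
  rw [pow_succ, Nat.div_div_eq_div_mul]

lemma one_sub_par (j : ℕ) : 1 - par M j =
    diagonal (fun i : Fin M => if i.val / 2 ^ j % 2 = 0 then (0 : ℝ) else 1) := by
  rw [par, ← diagonal_one, diagonal_sub]
  congr 1; funext i; split_ifs <;> simp

lemma par_mask (j m : ℕ) : par M j * mask M (j + 1) m = mask M j (2 * m) := by
  rw [par, mask, mask, diagonal_mul_diagonal]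
  congr 1; funext i; rw [div_succ]
  split_ifs <;> first | omega | simp

lemma mask_par (j m : ℕ) : mask M (j + 1) m * par M j = mask M j (2 * m) := by
  rw [par, mask, mask, diagonal_mul_diagonal]
  congr 1; funext i; rw [div_succ]
  split_ifs <;> first | omega | simp

lemma par_mask' (j m : ℕ) : (1 - par M j) * mask M (j + 1) m = mask M j (2 * m + 1) := by
  rw [one_sub_par, mask, mask, diagonal_mul_diagonal]
  congr 1; funext i; rw [div_succ]
  split_ifs <;> first | omega | simp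

lemma mask_par' (j m : ℕ) : mask M (j + 1) m * (1 - par M j) = mask M j (2 * m + 1) := by
  rw [one_sub_par, mask, mask, diagonal_mul_diagonal]
  congr 1; funext i; rw [div_succ]
  split_ifs <;> first | omega | simp

lemma mask_h_mask (j m : ℕ) : mask M (j + 1) m * (par M j - (1 - par M j)) * mask M (j + 1) m =
    diagonal (fun i : Fin M => hd j m i) := by
  rw [one_sub_par, par, mask, diagonal_sub, diagonal_mul_diagonal, diagonal_mul_diagonal]
  congr 1; funext i; rw [div_succ]; unfold hd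
  split_ifs <;> first | omega | simp

lemma blk_assoc (L R : Matrix (Fin M) (Fin M) ℝ) (j m m' : ℕ) (F : Matrix (Fin M) (Fin M) ℝ) :
    L * blk j m m' F * R = (L * mask M j m) * F * (mask M j m' * R) := by
  simp only [blk, Matrix.mul_assoc]

/-- the discrete triangular Haar form -/
noncomputable def TT (F0 F1 F2 : Matrix (Fin M) (Fin M) ℝ) (j m0 m1 m2 : ℕ) : ℝ :=
  ∑ i0, ∑ i1, ∑ i2, F0 i0 i1 * F1 i1 i2 * F2 i2 i0 * (hd j m0 i0 * hd j m1 i1 * hd j m2 i2)

lemma trace_eq_TT (F0 F1 F2 : Matrix (Fin M) (Fin M) ℝ) (j m0 m1 m2 : ℕ) :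
    trace ((par M j - (1 - par M j)) * blk (j + 1) m0 m1 F0 * (par M j - (1 - par M j)) *
      blk (j + 1) m1 m2 F1 * (par M j - (1 - par M j)) * blk (j + 1) m2 m0 F2) =
      TT F0 F1 F2 j m0 m1 m2 := by
  have h := fun m => mask_h_mask (M := M) j m
  generalize par M j - (1 - par M j) = H at h ⊢
  calc _ = trace ((H * mask M (j + 1) m0 * F0 * (mask M (j + 1) m1 * H * mask M (j + 1) m1) * F1 *
        (mask M (j + 1) m2 * H * mask M (j + 1) m2) * F2) * mask M (j + 1) m0) := by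
        simp only [blk, Matrix.mul_assoc]
    _ = trace ((mask M (j + 1) m0 * H * mask M (j + 1) m0) * F0 *
        (mask M (j + 1) m1 * H * mask M (j + 1) m1) * F1 *
        (mask M (j + 1) m2 * H * mask M (j + 1) m2) * F2) := by
        rw [trace_mul_comm]; simp only [Matrix.mul_assoc]
    _ = _ := by
        rw [h, h, h]
        simp only [trace, diag_apply, TT]
        refine sum_congr rfl fun i0 _ => ?_
        rw [sum_comm, mul_apply]
        refine sum_congr rfl fun i2 _ => ?_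
        rw [mul_diagonal, mul_apply, sum_mul, sum_mul]
        refine sum_congr rfl fun i1 _ => ?_
        rw [mul_diagonal, diagonal_mul]
        ring

noncomputable def bb (ε : ℝ) (F0 F1 F2 : Matrix (Fin M) (Fin M) ℝ) (j m0 m1 : ℕ) : ℝ :=
  beta ε (blk j m0 m1 F0) (blk j m1 (m0 ^^^ m1) F1) (blk j (m0 ^^^ m1) m0 F2)

lemma xor_ee (a b : ℕ) : (2 * a) ^^^ (2 * b) = 2 * (a ^^^ b) := by
  simpa [Nat.bit] using Nat.xor_bit false a false b
lemma xor_eo (a b : ℕ) : (2 * a) ^^^ (2 * b + 1) = 2 * (a ^^^ b) + 1 := by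
  simpa [Nat.bit] using Nat.xor_bit false a true b
lemma xor_oe (a b : ℕ) : (2 * a + 1) ^^^ (2 * b) = 2 * (a ^^^ b) + 1 := by
  simpa [Nat.bit] using Nat.xor_bit true a false b
lemma xor_oo (a b : ℕ) : (2 * a + 1) ^^^ (2 * b + 1) = 2 * (a ^^^ b) := by
  simpa [Nat.bit] using Nat.xor_bit true a true b

lemma bb_step {ε : ℝ} (hε : 0 < ε) (F0 F1 F2 : Matrix (Fin M) (Fin M) ℝ) (j m0 m1 : ℕ) :
    |TT F0 F1 F2 j m0 m1 (m0 ^^^ m1)| + bb ε F0 F1 F2 (j + 1) m0 m1 ≤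
      2 * (bb ε F0 F1 F2 j (2 * m0) (2 * m1) + bb ε F0 F1 F2 j (2 * m0) (2 * m1 + 1) +
        bb ε F0 F1 F2 j (2 * m0 + 1) (2 * m1) + bb ε F0 F1 F2 j (2 * m0 + 1) (2 * m1 + 1)) := by
  have hP : (par M j)ᵀ = par M j := by simp [par]
  have hPP : par M j * par M j = par M j := by
    rw [par, diagonal_mul_diagonal]; congr 1; funext i; split_ifs <;> simp
  have h := local_ineq hε hP hPP (blk (j + 1) m0 m1 F0) (blk (j + 1) m1 (m0 ^^^ m1) F1)
    (blk (j + 1) (m0 ^^^ m1) m0 F2)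
  rw [trace_eq_TT] at h
  simp only [blk_assoc, par_mask, mask_par, par_mask', mask_par'] at h
  simp only [bb, xor_ee, xor_eo, xor_oe, xor_oo]
  exact h

lemma sum_range_double (f : ℕ → ℝ) (N : ℕ) :
    ∑ m ∈ range (2 * N), f m = ∑ m ∈ range N, (f (2 * m) + f (2 * m + 1)) := by
  induction N with
  | zero => simp
  | succ N ih =>
    rw [show 2 * (N + 1) = 2 * N + 1 + 1 by ring, sum_range_succ, sum_range_succ, ih,
      sum_range_succ]
    ring

lemma telescope {ε : ℝ} (hε : 0 < ε) (F0 F1 F2 : Matrix (Fin M) (Fin M) ℝ) (K : ℕ) :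
    ∀ J, J ≤ K → ∑ j ∈ range J, (∑ m0 ∈ range (2 ^ (K - (j + 1))),
      ∑ m1 ∈ range (2 ^ (K - (j + 1))), |TT F0 F1 F2 j m0 m1 (m0 ^^^ m1)|) / 2 ^ (j + 1) +
      (∑ m0 ∈ range (2 ^ (K - J)), ∑ m1 ∈ range (2 ^ (K - J)), bb ε F0 F1 F2 J m0 m1) / 2 ^ J ≤
      ∑ m0 ∈ range (2 ^ K), ∑ m1 ∈ range (2 ^ K), bb ε F0 F1 F2 0 m0 m1 := by
  intro J
  induction J with
  | zero => intro _; simp
  | succ J ih =>
    intro hJ
    refine le_trans ?_ (ih (by omega))
    rw [sum_range_succ, add_assoc]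
    refine add_le_add le_rfl ?_
    have e : 2 ^ (K - J) = 2 * 2 ^ (K - (J + 1)) := by
      rw [← pow_succ']; congr 1; omega
    rw [e, sum_range_double]
    simp only [sum_range_double]
    rw [← add_div, pow_succ, div_le_div_iff₀ (by positivity) (by positivity), mul_comm (2 ^ J : ℝ) 2,
      ← mul_assoc]
    refine mul_le_mul_of_nonneg_right ?_ (by positivity)
    rw [← sum_add_distrib, sum_mul]
    refine sum_le_sum fun m0 _ => ?_
    rw [← sum_add_distrib, ← sum_add_distrib, sum_mul]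
    refine sum_le_sum fun m1 _ => ?_
    have := bb_step hε F0 F1 F2 J m0 m1
    linarith

lemma cube_bound (a b e : ℝ) (he : 0 ≤ e) :
    (a * a + b * b + e * e) * √(a * a + b * b + e * e) ≤ 9 * (|a| ^ 3 + |b| ^ 3 + e ^ 3) := by
  have ha := abs_nonneg a
  have hb := abs_nonneg b
  rw [← abs_mul_abs_self a, ← abs_mul_abs_self b]
  generalize |a| = x at *
  generalize |b| = y at *
  have h1 : √(x * x + y * y + e * e) ≤ x + y + e := by
    rw [Real.sqrt_le_left (by positivity)]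
    nlinarith [mul_nonneg ha hb, mul_nonneg ha he, mul_nonneg hb he]
  refine (mul_le_mul_of_nonneg_left h1 (by positivity)).trans ?_
  nlinarith [mul_nonneg (add_nonneg ha hb) (sq_nonneg (x - y)),
    mul_nonneg (add_nonneg ha he) (sq_nonneg (x - e)),
    mul_nonneg (add_nonneg hb he) (sq_nonneg (y - e)), pow_nonneg ha 3, pow_nonneg hb 3,
    pow_nonneg he 3]

lemma tau_PP_base (e : ℝ) (he : 0 ≤ e) (F G : Matrix (Fin M) (Fin M) ℝ) (a b c : Fin M) :
    tau (PP (e * e) (blk 0 a b F) (blk 0 b c G)) ≤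
      9 * (|F a b| ^ 3 + |G b c| ^ 3 + e ^ 3) + M * e ^ 3 := by
  have hb : ∀ (H : Matrix (Fin M) (Fin M) ℝ) (x y i j : Fin M),
      blk 0 x y H i j = if i = x ∧ j = y then H x y else 0 := by
    intro H x y i j
    simp only [blk, mask, mul_diagonal, diagonal_mul, pow_zero, Nat.div_one, Fin.val_inj]
    by_cases h1 : i = x <;> by_cases h2 : j = y <;> simp [h1, h2]
  have h1 : PP (e * e) (blk 0 a b F) (blk 0 b c G) =
      diagonal (fun i => if i = b then F a b * F a b + G b c * G b c + e * e else e * e) := by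
    ext i j
    simp only [PP, Matrix.add_apply, mul_apply, transpose_apply, hb, Matrix.smul_apply, one_apply,
      diagonal_apply, smul_eq_mul]
    by_cases h1 : i = b <;> by_cases h2 : j = b <;> by_cases h3 : i = j <;> simp_all
  rw [h1, tau_diag]
  have h2 : ∀ i : Fin M, (if i = b then F a b * F a b + G b c * G b c + e * e else e * e) *
      √(if i = b then F a b * F a b + G b c * G b c + e * e else e * e) ≤
      (if i = b then 9 * (|F a b| ^ 3 + |G b c| ^ 3 + e ^ 3) else 0) + e ^ 3 := by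
    intro i
    split_ifs
    · have := cube_bound (F a b) (G b c) e he
      have := pow_nonneg he 3
      linarith
    · rw [Real.sqrt_mul_self he]; apply le_of_eq; ring
  refine (sum_le_sum fun i _ => h2 i).trans ?_
  rw [sum_add_distrib]
  simp

lemma sum_xor (K : ℕ) (f : ℕ → ℝ) (m : ℕ) (hm : m < 2 ^ K) :
    ∑ a ∈ range (2 ^ K), f (a ^^^ m) = ∑ a ∈ range (2 ^ K), f a := by
  refine sum_nbij' (fun a => a ^^^ m) (fun a => a ^^^ m) ?_ ?_ ?_ ?_ ?_
  · intro a ha; exact mem_range.2 (Nat.xor_lt_two_pow (mem_range.1 ha) hm)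
  · intro a ha; exact mem_range.2 (Nat.xor_lt_two_pow (mem_range.1 ha) hm)
  · intro a _; simp
  · intro a _; simp
  · intro a _; rfl

/-- the discrete form, indexed by natural numbers -/
noncomputable def DD (g0 g1 g2 : ℕ → ℕ → ℝ) (N j m0 m1 m2 : ℕ) : ℝ :=
  ∑ i0 ∈ range N, ∑ i1 ∈ range N, ∑ i2 ∈ range N,
    g0 i0 i1 * g1 i1 i2 * g2 i2 i0 * (hd j m0 i0 * hd j m1 i1 * hd j m2 i2)

theorem discrete (g0 g1 g2 : ℕ → ℕ → ℝ) (K : ℕ) :
    ∑ j ∈ range K, (∑ m0 ∈ range (2 ^ (K - (j + 1))), ∑ m1 ∈ range (2 ^ (K - (j + 1))),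
      |DD g0 g1 g2 (2 ^ K) j m0 m1 (m0 ^^^ m1)|) / 2 ^ (j + 1) ≤
      18 * ∑ a ∈ range (2 ^ K), ∑ b ∈ range (2 ^ K),
        (|g0 a b| ^ 3 + |g1 a b| ^ 3 + |g2 a b| ^ 3) := by
  let F0 : Matrix (Fin (2 ^ K)) (Fin (2 ^ K)) ℝ := Matrix.of fun i j => g0 i j
  let F1 : Matrix (Fin (2 ^ K)) (Fin (2 ^ K)) ℝ := Matrix.of fun i j => g1 i j
  let F2 : Matrix (Fin (2 ^ K)) (Fin (2 ^ K)) ℝ := Matrix.of fun i j => g2 i j
  have hT : ∀ j m0 m1 m2, DD g0 g1 g2 (2 ^ K) j m0 m1 m2 = TT F0 F1 F2 j m0 m1 m2 := by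
    intro j m0 m1 m2
    simp only [DD, TT, sum_range, F0, F1, F2, of_apply]
  simp only [hT]
  have main : ∀ e : ℝ, 0 < e → ∑ j ∈ range K, (∑ m0 ∈ range (2 ^ (K - (j + 1))),
      ∑ m1 ∈ range (2 ^ (K - (j + 1))), |TT F0 F1 F2 j m0 m1 (m0 ^^^ m1)|) / 2 ^ (j + 1) ≤
      18 * ∑ a ∈ range (2 ^ K), ∑ b ∈ range (2 ^ K),
        (|g0 a b| ^ 3 + |g1 a b| ^ 3 + |g2 a b| ^ 3) +
        (2 ^ K * 2 ^ K * (27 + 3 * 2 ^ K)) * e ^ 3 := by
    intro e he
    have h1 := telescope (mul_pos he he) F0 F1 F2 K K le_rfl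
    have h2 : 0 ≤ (∑ m0 ∈ range (2 ^ (K - K)), ∑ m1 ∈ range (2 ^ (K - K)),
        bb (e * e) F0 F1 F2 K m0 m1) / 2 ^ K :=
      div_nonneg (sum_nonneg fun _ _ => sum_nonneg fun _ _ =>
        beta_nonneg (mul_pos he he).le _ _ _) (by positivity)
    have h3 : ∑ m0 ∈ range (2 ^ K), ∑ m1 ∈ range (2 ^ K), bb (e * e) F0 F1 F2 0 m0 m1 ≤
        ∑ m0 ∈ range (2 ^ K), ∑ m1 ∈ range (2 ^ K), (18 * (|g0 m0 m1| ^ 3 +
          |g1 m1 (m0 ^^^ m1)| ^ 3 + |g2 (m0 ^^^ m1) m0| ^ 3) + (27 + 3 * 2 ^ K) * e ^ 3) := by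
      refine sum_le_sum fun m0 h0 => sum_le_sum fun m1 h1 => ?_
      have h0' := mem_range.1 h0
      have h1' := mem_range.1 h1
      have h2' := Nat.xor_lt_two_pow h0' h1'
      have t1 := tau_PP_base e he.le F0 F1 ⟨m0, h0'⟩ ⟨m1, h1'⟩ ⟨_, h2'⟩
      have t2 := tau_PP_base e he.le F1 F2 ⟨m1, h1'⟩ ⟨_, h2'⟩ ⟨m0, h0'⟩
      have t3 := tau_PP_base e he.le F2 F0 ⟨_, h2'⟩ ⟨m0, h0'⟩ ⟨m1, h1'⟩
      simp only [F0, F1, F2, of_apply] at t1 t2 t3
      push_cast at t1 t2 t3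
      simp only [bb, beta, F0, F1, F2]
      linarith
    have h4 : ∑ m0 ∈ range (2 ^ K), ∑ m1 ∈ range (2 ^ K), |g1 m1 (m0 ^^^ m1)| ^ 3 =
        ∑ a ∈ range (2 ^ K), ∑ b ∈ range (2 ^ K), |g1 a b| ^ 3 := by
      rw [sum_comm]
      exact sum_congr rfl fun a ha => sum_xor K (fun b => |g1 a b| ^ 3) a (mem_range.1 ha)
    have h5 : ∑ m0 ∈ range (2 ^ K), ∑ m1 ∈ range (2 ^ K), |g2 (m0 ^^^ m1) m0| ^ 3 =
        ∑ a ∈ range (2 ^ K), ∑ b ∈ range (2 ^ K), |g2 a b| ^ 3 := by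
      rw [sum_comm (f := fun a b => |g2 a b| ^ 3)]
      refine sum_congr rfl fun a ha => ?_
      simp only [Nat.xor_comm a]
      exact sum_xor K (fun b => |g2 b a| ^ 3) a (mem_range.1 ha)
    simp only [sum_add_distrib, ← mul_sum, h4, h5, sum_const, card_range, nsmul_eq_mul] at h3 ⊢
    push_cast at h3
    nlinarith
  refine le_of_forall_pos_le_add fun η hη => ?_
  have hc : (0 : ℝ) < 2 ^ K * 2 ^ K * (27 + 3 * 2 ^ K) := by positivity
  have h := main (min 1 (η / (2 ^ K * 2 ^ K * (27 + 3 * 2 ^ K)))) (by positivity)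
  refine h.trans (add_le_add le_rfl ?_)
  set e := min 1 (η / (2 ^ K * 2 ^ K * (27 + 3 * 2 ^ K))) with he
  have e0 : 0 ≤ e := by positivity
  have e1 : e ≤ 1 := min_le_left _ _
  have e2 : e ≤ η / (2 ^ K * 2 ^ K * (27 + 3 * 2 ^ K)) := min_le_right _ _
  have e3 : e ^ 3 ≤ e := pow_le_of_le_one e0 e1 (by norm_num)
  rw [le_div_iff₀ hc] at e2
  nlinarith

end Vale.Agent.P075
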