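import Vale.Agent.P075.Mat

namespace Vale.Agent.P075

open Matrix Finset

variable {n : Type*} [Fintype n] [DecidableEq n]

lemma psd_blockdiag {A D : Matrix n n ℝ} (hA : A.PosSemidef) (hD : D.PosSemidef) :
    (fromBlocks A 0 0 D).PosSemidef := by
  rw [psd_iff]
  refine ⟨by rw [fromBlocks_transpose, psd_symm hA, psd_symm hD]; simp, fun x => ?_⟩
  rw [← Sum.elim_comp_inl_inr x, fromBlocks_mulVec, sumElim_dotProduct_sumElim]
  simp only [Sum.elim_comp_inl, Sum.elim_comp_inr, zero_mulVec, add_zero, zero_add]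
  exact add_nonneg ((psd_iff.1 hA).2 _) ((psd_iff.1 hD).2 _)

lemma lemII_aux {Q1 Q2 B : Matrix n n ℝ} (h1 : Q1.PosSemidef) (h2 : Q2.PosSemidef)
    (hB1 : (Q1 * Q1 - B * Bᵀ).PosSemidef) (hB2 : (Q2 * Q2 - Bᵀ * B).PosSemidef)
    (Y1 Y2 : Matrix n n ℝ) :
    0 ≤ trace (Y1ᵀ * Q1 * Y1) + trace (Y2ᵀ * Q2 * Y2) + 2 * trace (Y1ᵀ * B * Y2) := by
  have hK := psd_blockdiag h1 h2
  have hJ : (fromBlocks (0 : Matrix n n ℝ) B Bᵀ 0)ᵀ = fromBlocks 0 B Bᵀ 0 := by
    rw [fromBlocks_transpose]; simp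
  have hd : fromBlocks Q1 0 0 Q2 * fromBlocks Q1 0 0 Q2 -
      fromBlocks (0 : Matrix n n ℝ) B Bᵀ 0 * fromBlocks 0 B Bᵀ 0 =
      fromBlocks (Q1 * Q1 - B * Bᵀ) 0 0 (Q2 * Q2 - Bᵀ * B) := by
    rw [fromBlocks_multiply, fromBlocks_multiply]
    ext (i | i) (j | j) <;> simp
  have h3 := lemJ hK hJ (hd ▸ psd_blockdiag hB1 hB2)
  have h4 := (psd_conj h3 (fromBlocks Y1 0 Y2 0)).trace_nonneg
  rw [fromBlocks_add, fromBlocks_transpose, fromBlocks_multiply, fromBlocks_multiply] at h4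
  have h5 : ∀ P Q R S : Matrix n n ℝ, trace (fromBlocks P Q R S) = trace P + trace S := by
    intro P Q R S; simp [trace, Fintype.sum_sum_type]
  rw [h5] at h4
  simp only [add_zero, zero_add, Matrix.mul_zero, Matrix.add_mul, trace_add, trace_zero] at h4
  have h6 : trace (Y2ᵀ * Bᵀ * Y1) = trace (Y1ᵀ * B * Y2) := by
    rw [← trace_transpose]; simp [Matrix.mul_assoc]
  linarith

lemma lemII {Q1 Q2 B : Matrix n n ℝ} (h1 : Q1.PosSemidef) (h2 : Q2.PosSemidef)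
    (hB1 : (Q1 * Q1 - B * Bᵀ).PosSemidef) (hB2 : (Q2 * Q2 - Bᵀ * B).PosSemidef)
    (Y1 Y2 : Matrix n n ℝ) :
    2 * |trace (Y1ᵀ * B * Y2)| ≤ trace (Y1ᵀ * Q1 * Y1) + trace (Y2ᵀ * Q2 * Y2) := by
  have e1 := lemII_aux h1 h2 hB1 hB2 Y1 Y2
  have e2 := lemII_aux h1 h2 hB1 hB2 Y1 (-Y2)
  simp only [transpose_neg, Matrix.neg_mul, Matrix.mul_neg, neg_neg, trace_neg] at e2
  cases abs_cases (trace (Y1ᵀ * B * Y2)) <;> linarith

def Contr (U : Matrix n n ℝ) : Prop := ∀ x : n → ℝ, (U *ᵥ x) ⬝ᵥ (U *ᵥ x) ≤ x ⬝ᵥ x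

lemma dot_tmul (U : Matrix n n ℝ) (x : n → ℝ) : x ⬝ᵥ (Uᵀ * U) *ᵥ x = (U *ᵥ x) ⬝ᵥ (U *ᵥ x) := by
  rw [← mulVec_mulVec, dotProduct_mulVec, vecMul_transpose]

lemma contr_iff {U : Matrix n n ℝ} : Contr U ↔ (1 - Uᵀ * U).PosSemidef := by
  rw [psd_iff]
  simp only [sub_mulVec, dotProduct_sub, one_mulVec, dot_tmul, sub_nonneg]
  refine ⟨fun h => ⟨by simp [transpose_sub], h⟩, fun h => h.2⟩

lemma Contr.mul {U V : Matrix n n ℝ} (hU : Contr U) (hV : Contr V) : Contr (U * V) := by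
  intro x
  rw [← mulVec_mulVec]
  exact (hU _).trans (hV x)

lemma Contr.tr {U : Matrix n n ℝ} (hU : Contr U) : Contr Uᵀ := by
  intro x
  have h1 := hU (Uᵀ *ᵥ x)
  have h2 : (Uᵀ *ᵥ x) ⬝ᵥ (Uᵀ *ᵥ x) = x ⬝ᵥ (U *ᵥ (Uᵀ *ᵥ x)) := by
    rw [dotProduct_mulVec x U, ← mulVec_transpose]
  have h3 : 0 ≤ (x - U *ᵥ (Uᵀ *ᵥ x)) ⬝ᵥ (x - U *ᵥ (Uᵀ *ᵥ x)) :=
    Finset.sum_nonneg fun i _ => mul_self_nonneg _
  simp only [sub_dotProduct, dotProduct_sub, dotProduct_comm (U *ᵥ (Uᵀ *ᵥ x)) x] at h3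
  linarith

lemma tr_contr {U M : Matrix n n ℝ} (hU : Contr U) (hM : M.PosSemidef) :
    trace (U * M * Uᵀ) ≤ trace M := by
  have := tr_mul_nonneg hM (contr_iff.1 hU)
  rw [Matrix.mul_sub, Matrix.mul_one, trace_sub, ← Matrix.mul_assoc, ← trace_mul_cycle] at this
  rw [trace_mul_cycle, trace_mul_cycle]
  rw [trace_mul_cycle] at this
  linarith

lemma contr_right {A Q : Matrix n n ℝ} (hQ : Q.PosDef) (h : (Q * Q - Aᵀ * A).PosSemidef) :
    Contr (A * Q⁻¹) := by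
  have hu := (isUnit_iff_isUnit_det Q).1 hQ.isUnit
  rw [contr_iff]
  have h1 := psd_conj h Q⁻¹
  have hs : Q⁻¹ᵀ = Q⁻¹ := by rw [transpose_nonsing_inv, psd_symm hQ.posSemidef]
  have h2 : Q⁻¹ᵀ * (Q * Q - Aᵀ * A) * Q⁻¹ = 1 - (A * Q⁻¹)ᵀ * (A * Q⁻¹) := by
    rw [Matrix.mul_sub, Matrix.sub_mul, transpose_mul, hs, ← Matrix.mul_assoc,
      nonsing_inv_mul Q hu, Matrix.one_mul, mul_nonsing_inv Q hu]
    simp only [Matrix.mul_assoc]
  rwa [h2] at h1

lemma contr_left {A Q : Matrix n n ℝ} (hQ : Q.PosDef) (h : (Q * Q - A * Aᵀ).PosSemidef) :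
    Contr (Q⁻¹ * A) := by
  have h1 := (contr_right (A := Aᵀ) hQ (by simpa using h)).tr
  have hs : Q⁻¹ᵀ = Q⁻¹ := by rw [transpose_nonsing_inv, psd_symm hQ.posSemidef]
  rwa [transpose_mul, hs, transpose_transpose] at h1

lemma typeII {Q1 Q2 B U X1 X2 : Matrix n n ℝ} (h1 : Q1.PosSemidef) (h2 : Q2.PosSemidef)
    (hB1 : (Q1 * Q1 - B * Bᵀ).PosSemidef) (hB2 : (Q2 * Q2 - Bᵀ * B).PosSemidef)
    (hU : Contr U) (hX1 : X1ᵀ = X1) (hX2 : X2ᵀ = X2) :
    2 * |trace (U * X1 * B * X2)| ≤ trace (Q1 * X1 * X1) + trace (Q2 * X2 * X2) := by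
  have e := lemII h1 h2 hB1 hB2 (X1 * Uᵀ) X2
  rw [transpose_mul, transpose_transpose, hX1, hX2] at e
  have e2 := tr_contr hU (psd_conj h1 X1)
  rw [hX1] at e2
  have e3 : trace (U * X1 * Q1 * (X1 * Uᵀ)) = trace (U * (X1 * Q1 * X1) * Uᵀ) := by
    simp only [Matrix.mul_assoc]
  have e4 : ∀ X Q : Matrix n n ℝ, trace (X * Q * X) = trace (Q * X * X) := by
    intro X Q; rw [trace_mul_cycle, trace_mul_cycle]
  rw [e4] at e2
  rw [e3, e4 X2] at e
  linarith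

lemma tau_contr {U X : Matrix n n ℝ} (hU : Contr U) (hX : Xᵀ = X) :
    tau (U * X * (U * X)ᵀ) ≤ tau (X * X) := by
  rw [tau_comm]
  refine tau_mono (psd_tmul _) ?_
  have := psd_conj (contr_iff.1 hU) X
  rw [Matrix.mul_sub, Matrix.sub_mul, Matrix.mul_one] at this
  rw [transpose_mul]
  rw [hX] at this ⊢
  simpa only [Matrix.mul_assoc] using this

lemma typeI {U0 U1 U2 X0 X1 X2 : Matrix n n ℝ} (h0 : Contr U0) (h1 : Contr U1) (h2 : Contr U2)
    (hX0 : X0ᵀ = X0) (hX1 : X1ᵀ = X1) (hX2 : X2ᵀ = X2) :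
    3 * |trace (U0 * X1 * U1 * X2 * U2 * X0)| ≤ tau (X0 * X0) + tau (X1 * X1) + tau (X2 * X2) := by
  obtain ⟨K1, hK1, hK1'⟩ := exists_sqrt (psd_mult (U2 * X0))
  obtain ⟨K2, hK2, hK2'⟩ := exists_sqrt (psd_mult (U0ᵀ * X0))
  have hB1 : (K1 * K1 - (U2 * X0 * U0) * (U2 * X0 * U0)ᵀ).PosSemidef := by
    have := psd_conj' (contr_iff.1 h0.tr) (U2 * X0)
    rw [Matrix.mul_sub, Matrix.sub_mul, Matrix.mul_one, transpose_transpose] at this
    rw [hK1', transpose_mul (U2 * X0)]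
    simpa only [Matrix.mul_assoc] using this
  have hB2 : (K2 * K2 - (U2 * X0 * U0)ᵀ * (U2 * X0 * U0)).PosSemidef := by
    have := psd_conj' (contr_iff.1 h2) (U0ᵀ * X0)
    rw [Matrix.mul_sub, Matrix.sub_mul, Matrix.mul_one] at this
    rw [hK2']
    simpa only [Matrix.mul_assoc, transpose_mul, transpose_transpose, hX0] using this
  have e := typeII hK1 hK2 hB1 hB2 h1 hX2 hX1
  have e1 : trace (U1 * X2 * (U2 * X0 * U0) * X1) = trace (U0 * X1 * U1 * X2 * U2 * X0) := by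
    calc _ = trace ((U1 * X2 * U2 * X0) * (U0 * X1)) := by simp only [Matrix.mul_assoc]
      _ = trace ((U0 * X1) * (U1 * X2 * U2 * X0)) := trace_mul_comm _ _
      _ = _ := by simp only [Matrix.mul_assoc]
  have y1 := young (psd_sq hX2) hK1
  have y2 := young (psd_sq hX1) hK2
  rw [← tau_sq hK1, hK1'] at y1
  rw [← tau_sq hK2, hK2'] at y2
  have t1 := tau_contr h2 hX0
  have t2 := tau_contr h0.tr hX0
  have c1 : trace (K1 * X2 * X2) = trace (X2 * X2 * K1) := by rw [trace_mul_cycle, trace_mul_cycle]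
  have c2 : trace (K2 * X1 * X1) = trace (X1 * X1 * K2) := by rw [trace_mul_cycle, trace_mul_cycle]
  rw [e1, c1, c2] at e
  linarith

lemma tau_sq_le {Q X : Matrix n n ℝ} (hX : Xᵀ = X) (h1 : (Q - (X + X)).PosSemidef)
    (h2 : (Q + (X + X)).PosSemidef) : 2 * tau (X * X) ≤ trace (Q * X * X) := by
  obtain ⟨U, d, hU1, hU2, rfl⟩ := spec hX
  rw [Matrix.mul_assoc Q, conj_mul hU2, tau_conj hU2]
  have h3 : Uᵀ * (U * diagonal d * Uᵀ) * U = diagonal d := by
    calc _ = (Uᵀ * U) * diagonal d * (Uᵀ * U) := by simp only [Matrix.mul_assoc]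
      _ = _ := by rw [hU2]; simp
  have h4 := psd_conj h1 U
  have h5 := psd_conj h2 U
  simp only [Matrix.mul_sub, Matrix.sub_mul, Matrix.mul_add, Matrix.add_mul, h3] at h4 h5
  have h6 : trace (Q * (U * diagonal (fun i => d i * d i) * Uᵀ)) =
      ∑ i, (Uᵀ * Q * U) i i * (d i * d i) := by
    rw [← Matrix.mul_assoc, trace_mul_comm, ← Matrix.mul_assoc, ← Matrix.mul_assoc]
    simp [trace, mul_diagonal]
  rw [h6, mul_sum]
  refine sum_le_sum fun i _ => ?_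
  have e1 := h4.diag_nonneg (i := i)
  have e2 := h5.diag_nonneg (i := i)
  simp only [Matrix.sub_apply, Matrix.add_apply, diagonal_apply_eq] at e1 e2
  rw [Real.sqrt_mul_self_eq_abs]
  have e3 : 2 * |d i| ≤ (Uᵀ * Q * U) i i := by cases abs_cases (d i) <;> linarith
  nlinarith [mul_self_nonneg (d i)]

lemma half_bound {Q P M0 M1 T : Matrix n n ℝ} (hQ : Q.PosSemidef) (hP : Pᵀ = P) (hPP : P * P = P)
    (h0 : M0.PosSemidef) (h1 : M1.PosSemidef) (h : (M0 + M1 - P * Q * Q * P).PosSemidef)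
    (hT : T.PosSemidef) :
    6 * trace (Q * P * Q * T) - trace (T * T * T) ≤ 8 * (tau M0 + tau M1) := by
  have hD : ((1 / 2 : ℝ) • (P * Q * Q * P)).PosSemidef := by
    have := psd_mult (P * Q)
    rw [transpose_mul, hP, psd_symm hQ] at this
    exact PosSemidef.smul (by simpa only [Matrix.mul_assoc] using this) (by norm_num)
  obtain ⟨R, hR, hRR⟩ := exists_sqrt hD
  have y0 := young h0 hR
  have y1 := young h1 hR
  have e1 := tr_mul_nonneg h hR
  have e2 : P * Q * Q * P = R * R + R * R := by rw [hRR, ← add_smul]; norm_num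
  rw [e2] at e1
  simp only [Matrix.sub_mul, Matrix.add_mul, trace_sub, trace_add] at e1
  have e3 : tau (R * R) = tau ((1 / 2 : ℝ) • (Q * P * Q)) := by
    rw [hRR]
    have a1 : (1 / 2 : ℝ) • (P * Q * Q * P) = ((1 / 2 : ℝ) • (P * Q)) * (Q * P) := by
      simp only [Matrix.smul_mul, Matrix.mul_assoc]
    have a2 : (1 / 2 : ℝ) • (Q * P * Q) = (Q * P) * ((1 / 2 : ℝ) • (P * Q)) := by
      simp only [Matrix.mul_smul, Matrix.mul_assoc]
      rw [← Matrix.mul_assoc P P, hPP]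
    rw [a1, a2, tau_comm]
  have hN : ((1 / 2 : ℝ) • (Q * P * Q)).PosSemidef := by
    have := psd_mult (Q * P)
    rw [transpose_mul, hP, psd_symm hQ, Matrix.mul_assoc, ← Matrix.mul_assoc P P, hPP] at this
    exact PosSemidef.smul (by simpa only [Matrix.mul_assoc] using this) (by norm_num)
  have y2 := young hN (hT.smul (a := (1 / 2 : ℝ)) (by norm_num))
  rw [← e3, tau_sq hR] at y2
  simp only [Matrix.smul_mul, Matrix.mul_smul, trace_smul, smul_eq_mul] at y2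
  linarith

lemma deficiency {Q P : Matrix n n ℝ} (hQ : Q.PosDef) (hP : Pᵀ = P) (hPP : P * P = P) :
    ∃ X : Matrix n n ℝ, Xᵀ = X ∧ X * Q⁻¹ + Q⁻¹ * X = P - (1 - P) ∧
      2 * tau (X * X) ≤ trace (Q * X * X) ∧ 0 ≤ trace (Q * X * X) ∧
      ∀ M00 M10 M01 M11 : Matrix n n ℝ, M00.PosSemidef → M10.PosSemidef → M01.PosSemidef →
        M11.PosSemidef → (M00 + M10 - P * Q * Q * P).PosSemidef →
        (M01 + M11 - (1 - P) * Q * Q * (1 - P)).PosSemidef →
        tau (Q * Q) + 3 / 2 * trace (Q * X * X) ≤ 2 * (tau M00 + tau M10 + tau M01 + tau M11) := by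
  have hQs := psd_symm hQ.posSemidef
  have hP' : (1 - P)ᵀ = 1 - P := by rw [transpose_sub, transpose_one, hP]
  have hPP' : (1 - P) * (1 - P) = 1 - P := by
    rw [Matrix.sub_mul, Matrix.mul_sub, Matrix.mul_sub, hPP]; simp
  obtain ⟨X, hX, hL⟩ := lyap_exists (Y := Q * (P - (1 - P)) * Q) hQ (by
    rw [transpose_mul, transpose_mul, transpose_sub, hQs, hP, hP', Matrix.mul_assoc])
  have hu := (isUnit_iff_isUnit_det Q).1 hQ.isUnit
  have hN0 : (Q * P * Q).PosSemidef := by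
    have := psd_mult (Q * P)
    rwa [transpose_mul, hP, hQs, Matrix.mul_assoc, ← Matrix.mul_assoc P P, hPP,
      ← Matrix.mul_assoc] at this
  have hN1 : (Q * (1 - P) * Q).PosSemidef := by
    have := psd_mult (Q * (1 - P))
    rwa [transpose_mul, hP', hQs, Matrix.mul_assoc, ← Matrix.mul_assoc (1 - P) (1 - P), hPP',
      ← Matrix.mul_assoc] at this
  have a0 : Q * P * Q + Q * P * Q = Q * Q + (Q * X + X * Q) := by
    rw [hL]; simp only [Matrix.mul_sub, Matrix.sub_mul, Matrix.mul_one]; abel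
  have a1 : Q * (1 - P) * Q + Q * (1 - P) * Q = Q * Q - (Q * X + X * Q) := by
    rw [hL]; simp only [Matrix.mul_sub, Matrix.sub_mul, Matrix.mul_one]; abel
  have b0 : (Q + (X + X)).PosSemidef := by
    refine lyap_pos hQ (by simp [transpose_add, hQs, hX]) ?_
    have : Q * (Q + (X + X)) + (Q + (X + X)) * Q =
        (Q * P * Q + Q * P * Q) + (Q * P * Q + Q * P * Q) := by
      rw [a0]; simp only [Matrix.mul_add, Matrix.add_mul]; abel
    rw [this]
    exact (hN0.add hN0).add (hN0.add hN0)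
  have b1 : (Q - (X + X)).PosSemidef := by
    refine lyap_pos hQ (by simp [transpose_add, transpose_sub, hQs, hX]) ?_
    have : Q * (Q - (X + X)) + (Q - (X + X)) * Q =
        (Q * (1 - P) * Q + Q * (1 - P) * Q) + (Q * (1 - P) * Q + Q * (1 - P) * Q) := by
      rw [a1]; simp only [Matrix.mul_add, Matrix.add_mul, Matrix.mul_sub, Matrix.sub_mul]; abel
    rw [this]
    exact (hN1.add hN1).add (hN1.add hN1)
  have c0 : (Q + X).PosSemidef := by
    have := (b0.add hQ.posSemidef).smul (a := (1 / 2 : ℝ)) (by norm_num)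
    have e : (1 / 2 : ℝ) • (Q + (X + X) + Q) = Q + X := by module
    rwa [e] at this
  have c1 : (Q - X).PosSemidef := by
    have := (b1.add hQ.posSemidef).smul (a := (1 / 2 : ℝ)) (by norm_num)
    have e : (1 / 2 : ℝ) • (Q - (X + X) + Q) = Q - X := by module
    rwa [e] at this
  refine ⟨X, hX, ?_, tau_sq_le hX b1 b0, ?_, ?_⟩
  · have := congrArg (fun M => Q⁻¹ * M * Q⁻¹) hL
    simp only [Matrix.mul_add, Matrix.add_mul, ← Matrix.mul_assoc, nonsing_inv_mul Q hu,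
      Matrix.one_mul] at this
    simp only [Matrix.mul_assoc, mul_nonsing_inv Q hu, Matrix.mul_one] at this
    exact this
  · rw [Matrix.mul_assoc]; exact tr_mul_nonneg hQ.posSemidef (psd_sq hX)
  · intro M00 M10 M01 M11 h00 h10 h01 h11 hb0 hb1
    have f0 := half_bound hQ.posSemidef hP hPP h00 h10 hb0 c0
    have f1 := half_bound hQ.posSemidef hP' hPP' h01 h11 hb1 c1
    have g0 := congrArg (fun M => trace (M * (Q + X))) a0
    have g1 := congrArg (fun M => trace (M * (Q - X))) a1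
    simp only [Matrix.add_mul (Q * P * Q), Matrix.add_mul (Q * (1 - P) * Q), trace_add] at g0 g1
    rw [tau_sq hQ.posSemidef]
    generalize trace (Q * P * Q * (Q + X)) = t0 at f0 g0
    generalize trace (Q * (1 - P) * Q * (Q - X)) = t1 at f1 g1
    simp only [Matrix.mul_add, Matrix.add_mul, Matrix.mul_sub, Matrix.sub_mul, trace_add,
      trace_sub] at f0 f1 g0 g1
    have e1 : trace (X * Q * X) = trace (Q * X * X) := by rw [trace_mul_cycle, trace_mul_cycle]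
    have e2 : trace (X * X * Q) = trace (Q * X * X) := by rw [trace_mul_cycle]
    linarith

end Vale.Agent.P075
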