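import Mathlib

namespace Vale.Agent.P075

open Matrix Finset

variable {n : Type*} [Fintype n] [DecidableEq n]

lemma psd_iff {M : Matrix n n ℝ} : M.PosSemidef ↔ Mᵀ = M ∧ ∀ x, 0 ≤ x ⬝ᵥ M *ᵥ x := by
  rw [posSemidef_iff_dotProduct_mulVec]
  simp [IsHermitian]

lemma psd_symm {M : Matrix n n ℝ} (h : M.PosSemidef) : Mᵀ = M := (psd_iff.1 h).1

lemma psd_conj {M : Matrix n n ℝ} (h : M.PosSemidef) (B : Matrix n n ℝ) :
    (Bᵀ * M * B).PosSemidef := by
  simpa using h.conjTranspose_mul_mul_same B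

lemma psd_conj' {M : Matrix n n ℝ} (h : M.PosSemidef) (B : Matrix n n ℝ) :
    (B * M * Bᵀ).PosSemidef := by
  simpa using h.mul_mul_conjTranspose_same B

lemma psd_tmul (B : Matrix n n ℝ) : (Bᵀ * B).PosSemidef := by
  simpa using posSemidef_conjTranspose_mul_self B

lemma psd_mult (B : Matrix n n ℝ) : (B * Bᵀ).PosSemidef := by
  simpa using posSemidef_self_mul_conjTranspose B

lemma spec {X : Matrix n n ℝ} (h : Xᵀ = X) : ∃ (U : Matrix n n ℝ) (d : n → ℝ),
    U * Uᵀ = 1 ∧ Uᵀ * U = 1 ∧ X = U * diagonal d * Uᵀ := by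
  have hX : X.IsHermitian := by simpa [IsHermitian] using h
  refine ⟨hX.eigenvectorUnitary, hX.eigenvalues, ?_, ?_, ?_⟩
  · simpa [star_eq_conjTranspose] using (Unitary.coe_mul_star_self hX.eigenvectorUnitary)
  · simpa [star_eq_conjTranspose] using (Unitary.coe_star_mul_self hX.eigenvectorUnitary)
  · have := hX.spectral_theorem
    simpa [Unitary.conjStarAlgAut_apply, star_eq_conjTranspose, Function.comp_def] using this

/-- sum of the `3/2` powers of the eigenvalues -/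
noncomputable def tau (M : Matrix n n ℝ) : ℝ := (M.charpoly.roots.map (fun x => x * √x)).sum

lemma tau_comm (A B : Matrix n n ℝ) : tau (A * B) = tau (B * A) := by
  unfold tau; rw [charpoly_mul_comm]

lemma tau_diag (d : n → ℝ) : tau (diagonal d) = ∑ i, d i * √(d i) := by
  unfold tau
  rw [charpoly_diagonal]
  have : ∏ i, (Polynomial.X - Polynomial.C (d i)) =
      ((univ.val.map d).map (fun a => Polynomial.X - Polynomial.C a)).prod := by
    rw [Multiset.map_map]; rfl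
  rw [this, Polynomial.roots_multiset_prod_X_sub_C, Multiset.map_map]
  rfl

lemma tau_conj {U : Matrix n n ℝ} (hU : Uᵀ * U = 1) (d : n → ℝ) :
    tau (U * diagonal d * Uᵀ) = ∑ i, d i * √(d i) := by
  rw [tau_comm, ← Matrix.mul_assoc, hU, Matrix.one_mul, tau_diag]

lemma conj_mul {U : Matrix n n ℝ} (hU : Uᵀ * U = 1) (d e : n → ℝ) :
    (U * diagonal d * Uᵀ) * (U * diagonal e * Uᵀ) = U * diagonal (fun i => d i * e i) * Uᵀ := by
  calc _ = U * (diagonal d * (Uᵀ * U) * diagonal e) * Uᵀ := by simp only [Matrix.mul_assoc]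
    _ = _ := by rw [hU, Matrix.mul_one, diagonal_mul_diagonal]

lemma trace_conj {U : Matrix n n ℝ} (hU : Uᵀ * U = 1) (d : n → ℝ) :
    trace (U * diagonal d * Uᵀ) = ∑ i, d i := by
  rw [trace_mul_comm, ← Matrix.mul_assoc, hU, Matrix.one_mul, trace_diagonal]

lemma psd_spec {X : Matrix n n ℝ} (h : X.PosSemidef) : ∃ (U : Matrix n n ℝ) (d : n → ℝ),
    U * Uᵀ = 1 ∧ Uᵀ * U = 1 ∧ X = U * diagonal d * Uᵀ ∧ ∀ i, 0 ≤ d i := by
  obtain ⟨U, d, h1, h2, h3⟩ := spec (psd_symm h)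
  refine ⟨U, d, h1, h2, h3, ?_⟩
  have h4 := psd_conj h U
  have h5 : Uᵀ * X * U = diagonal d := by
    rw [h3]
    calc _ = (Uᵀ * U) * diagonal d * (Uᵀ * U) := by simp only [Matrix.mul_assoc]
      _ = _ := by rw [h2]; simp
  rw [h5] at h4
  exact posSemidef_diagonal_iff.1 h4

lemma psd_of_diag (U : Matrix n n ℝ) {d : n → ℝ} (hd : ∀ i, 0 ≤ d i) :
    (U * diagonal d * Uᵀ).PosSemidef :=
  psd_conj' (posSemidef_diagonal_iff.2 hd) U

lemma exists_sqrt {M : Matrix n n ℝ} (h : M.PosSemidef) :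
    ∃ R : Matrix n n ℝ, R.PosSemidef ∧ R * R = M := by
  obtain ⟨U, d, -, h2, h3, h4⟩ := psd_spec h
  refine ⟨U * diagonal (fun i => √(d i)) * Uᵀ, psd_of_diag U fun i => Real.sqrt_nonneg _, ?_⟩
  rw [conj_mul h2, h3]
  congr 3
  funext i
  exact Real.mul_self_sqrt (h4 i)

lemma tau_sq {R : Matrix n n ℝ} (h : R.PosSemidef) : tau (R * R) = trace (R * R * R) := by
  obtain ⟨U, d, -, h2, rfl, h4⟩ := psd_spec h
  rw [conj_mul h2, conj_mul h2, tau_conj h2, trace_conj h2]
  refine sum_congr rfl fun i _ => ?_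
  rw [Real.sqrt_mul_self (h4 i)]

lemma tr_mul_nonneg {M T : Matrix n n ℝ} (hM : M.PosSemidef) (hT : T.PosSemidef) :
    0 ≤ trace (M * T) := by
  obtain ⟨R, hR, rfl⟩ := exists_sqrt hM
  have := (psd_conj hT R).trace_nonneg
  rwa [psd_symm hR, trace_mul_cycle] at this

lemma psd_sq {X : Matrix n n ℝ} (h : Xᵀ = X) : (X * X).PosSemidef := by
  have := psd_tmul X
  rwa [h] at this

lemma young {M T : Matrix n n ℝ} (hM : M.PosSemidef) (hT : T.PosSemidef) :
    3 * trace (M * T) ≤ 2 * tau M + trace (T * T * T) := by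
  obtain ⟨Q, hQ, rfl⟩ := exists_sqrt hM
  rw [tau_sq hQ]
  have h1 : ((T - Q) * (T - Q)).PosSemidef :=
    psd_sq (by rw [transpose_sub, psd_symm hT, psd_symm hQ])
  have h2 := tr_mul_nonneg h1 ((hQ.add hQ).add hT)
  simp only [Matrix.sub_mul, Matrix.mul_sub, Matrix.mul_add, trace_add, trace_sub] at h2
  have e1 : trace (T * Q * Q) = trace (Q * Q * T) := by rw [trace_mul_cycle, trace_mul_cycle]
  have e2 : trace (Q * T * Q) = trace (Q * Q * T) := by rw [trace_mul_cycle]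
  have e3 : trace (T * Q * T) = trace (T * T * Q) := by rw [trace_mul_cycle]
  have e4 : trace (Q * T * T) = trace (T * T * Q) := by rw [trace_mul_cycle, trace_mul_cycle]
  linarith

lemma tau_nonneg {M : Matrix n n ℝ} (hM : M.PosSemidef) : 0 ≤ tau M := by
  obtain ⟨Q, hQ, rfl⟩ := exists_sqrt hM
  rw [tau_sq hQ]
  exact tr_mul_nonneg (psd_sq (psd_symm hQ)) hQ

lemma tau_mono {M M' : Matrix n n ℝ} (hM : M.PosSemidef) (h : (M' - M).PosSemidef) :
    tau M ≤ tau M' := by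
  have hM' : M'.PosSemidef := by simpa using h.add hM
  obtain ⟨Q, hQ, rfl⟩ := exists_sqrt hM
  have h1 := young hM' hQ
  have h2 := tr_mul_nonneg h hQ
  rw [Matrix.sub_mul, trace_sub] at h2
  rw [tau_sq hQ]
  linarith

lemma psd_of_eig {M : Matrix n n ℝ} (h : Mᵀ = M)
    (he : ∀ (v : n → ℝ) (l : ℝ), M *ᵥ v = l • v → v ⬝ᵥ v = 1 → 0 ≤ l) : M.PosSemidef := by
  obtain ⟨U, d, h1, h2, h3⟩ := spec h
  rw [h3]
  refine psd_of_diag U fun i => he (fun j => U j i) (d i) ?_ ?_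
  · have h4 : M * U = U * diagonal d := by
      rw [h3, Matrix.mul_assoc, h2, Matrix.mul_one]
    funext j
    have := congrFun (congrFun h4 j) i
    rw [mul_diagonal] at this
    simpa [mulVec, dotProduct, mul_apply, mul_comm] using this
  · have := congrFun (congrFun h2 i) i
    simpa [mul_apply, dotProduct] using this

lemma dot_symm {M : Matrix n n ℝ} (h : Mᵀ = M) (x y : n → ℝ) :
    x ⬝ᵥ M *ᵥ y = (M *ᵥ x) ⬝ᵥ y := by
  rw [dotProduct_mulVec, ← mulVec_transpose, h]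

lemma lemJ {K J : Matrix n n ℝ} (hK : K.PosSemidef) (hJ : Jᵀ = J)
    (h : (K * K - J * J).PosSemidef) : (K + J).PosSemidef := by
  refine psd_of_eig (by rw [transpose_add, psd_symm hK, hJ]) fun v l hv h1 => ?_
  by_contra hl
  push Not at hl
  have h2 := (psd_iff.1 h).2 v
  rw [sub_mulVec, dotProduct_sub, ← mulVec_mulVec, ← mulVec_mulVec, dot_symm (psd_symm hK),
    dot_symm hJ] at h2
  have h3 : J *ᵥ v = l • v - K *ᵥ v := by rw [← hv, add_mulVec]; simp
  have h4 := (psd_iff.1 hK).2 v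
  rw [h3] at h2
  simp only [sub_dotProduct, dotProduct_sub, smul_dotProduct, dotProduct_smul, smul_eq_mul, h1,
    dotProduct_comm (K *ᵥ v) v] at h2
  nlinarith

lemma lyap_pos {Q E : Matrix n n ℝ} (hQ : Q.PosDef) (hE : Eᵀ = E)
    (h : (Q * E + E * Q).PosSemidef) : E.PosSemidef := by
  refine psd_of_eig hE fun v l hv h1 => ?_
  by_contra hl
  push Not at hl
  have h2 := (psd_iff.1 h).2 v
  rw [add_mulVec, dotProduct_add, ← mulVec_mulVec, ← mulVec_mulVec, dot_symm hE, hv] at h2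
  simp only [mulVec_smul, smul_dotProduct, dotProduct_smul, smul_eq_mul] at h2
  have hv0 : v ≠ 0 := by rintro rfl; simp at h1
  have h3 : 0 < v ⬝ᵥ Q *ᵥ v := by simpa using hQ.dotProduct_mulVec_pos hv0
  nlinarith

lemma lyap_inj {Q E : Matrix n n ℝ} (hQ : Q.PosDef) (h : Q * E + E * Q = 0) : E = 0 := by
  have h1 : trace (Eᵀ * Q * E) + trace (E * Q * Eᵀ) = 0 := by
    have := congrArg (fun M => trace (Eᵀ * M)) h
    simp only [Matrix.mul_add, trace_add, Matrix.mul_zero, trace_zero] at this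
    rw [← this, Matrix.mul_assoc, trace_mul_comm (E * Q)]
  have h2 := (psd_conj hQ.posSemidef E).trace_nonneg
  have h3 := (psd_conj' hQ.posSemidef E).trace_nonneg
  have h4 : trace (Eᵀ * Q * E) = 0 := by linarith
  obtain ⟨R, hR, hRR⟩ := exists_sqrt hQ.posSemidef
  have h5 : trace ((R * E)ᴴ * (R * E)) = 0 := by
    rw [← h4, ← hRR]
    simp [psd_symm hR, Matrix.mul_assoc]
  have h6 := trace_conjTranspose_mul_self_eq_zero_iff.1 h5
  have h7 : Q * E = 0 := by rw [← hRR, Matrix.mul_assoc, h6, Matrix.mul_zero]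
  have hu := (isUnit_iff_isUnit_det Q).1 hQ.isUnit
  rw [← Matrix.one_mul E, ← nonsing_inv_mul Q hu, Matrix.mul_assoc, h7, Matrix.mul_zero]

lemma lyap_exists {Q Y : Matrix n n ℝ} (hQ : Q.PosDef) (hY : Yᵀ = Y) :
    ∃ X : Matrix n n ℝ, Xᵀ = X ∧ Q * X + X * Q = Y := by
  let L : Matrix n n ℝ →ₗ[ℝ] Matrix n n ℝ :=
    { toFun := fun X => Q * X + X * Q
      map_add' := fun X X' => by simp only [Matrix.mul_add, Matrix.add_mul]; abel
      map_smul' := fun c X => by simp }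
  have hinj : Function.Injective L := by
    rw [injective_iff_map_eq_zero]
    exact fun E hE => lyap_inj hQ hE
  obtain ⟨X, hX⟩ := LinearMap.injective_iff_surjective.1 hinj Y
  refine ⟨X, hinj ?_, hX⟩
  have hX' : Q * X + X * Q = Y := hX
  change Q * Xᵀ + Xᵀ * Q = Q * X + X * Q
  rw [hX', ← hY, ← hX', transpose_add, transpose_mul, transpose_mul, psd_symm hQ.posSemidef,
    add_comm]

end Vale.Agent.P075
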